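import Mathlib

/-!
# P097 / case [c] / (A4) of helper589 (note 13190): the LOCAL WORLD and its rows

Coordinates: `z = (μ, ζ) : ℂ × ℂ`, edge `ℝ × ℝ`, real linear normal form of 453's straightened
coordinates: (1,0) is a direction inside the base cone of `L_j` (cone `K1 k`), (0,1) a direction
of the wide cone of `L_{j-1}` (cone `K2 k`, spanned by slightly more than the quadrant).
`F` = normal angle, `q` = support number of the tangent line, on the strip `Sb b`.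
`al`, `p` = normal angle and support number of the line `L_{j-1}`, `th` = position `θ_j`.
-/

set_option linter.all false

open Complex Metric Filter Topology Set MeasureTheory
open scoped ComplexConjugate

namespace Vale.Agent.P097.TC

/-- the strip (same text as `H202.Str`) -/
def Sb (b : ℝ) : Set ℂ := {z : ℂ | |z.im| < b}

/-- real part (foot) and imaginary part (height) of a point of `ℂ × ℂ` -/
def ft (z : ℂ × ℂ) : ℝ × ℝ := (z.1.re, z.2.re)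
def ht (z : ℂ × ℂ) : ℝ × ℝ := (z.1.im, z.2.im)

/-- real points -/
def rl (e : ℝ × ℝ) : ℂ × ℂ := ((e.1 : ℂ), (e.2 : ℂ))

/-- the small cone (base domain) -/
def K1 (k : ℝ) : Set (ℝ × ℝ) := {y | |y.2| < k * y.1}
/-- the wide cone (`L_{j-1}`) -/
def K2 (k : ℝ) : Set (ℝ × ℝ) := {y | 0 < y.1 + k * y.2 ∧ 0 < y.2 + k * y.1}

/-- the whole tube over a cone -/
def Tc (K : Set (ℝ × ℝ)) : Set (ℂ × ℂ) := {z | ht z ∈ K}

/-- the local tube over the ball of radius `ρ` (sup norm) -/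
def TB (e : ℝ × ℝ) (ρ : ℝ) (K : Set (ℝ × ℝ)) : Set (ℂ × ℂ) :=
  {z | ft z ∈ ball e ρ ∧ ‖ht z‖ < ρ ∧ ht z ∈ K}

/-- blow up at the real point `e`, scale `r` -/
def bl (e : ℝ × ℝ) (r : ℝ) (z : ℂ × ℂ) : ℂ × ℂ := (e.1 + r * z.1, e.2 + r * z.2)

/-- incidence function of the vertex with parameter `x` and the line (a, p)
(same text as `SC.Gi`) -/
noncomputable def Mi (F q : ℂ → ℂ) (a p x : ℂ) : ℂ :=
  deriv F x * (q x * Complex.cos (a - F x) - p) + deriv q x * Complex.sin (a - F x)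

/-- the curve -/
structure Cv (Λ b : ℝ) (F q : ℂ → ℂ) : Prop where
  Λ0 : 0 < Λ
  b0 : 0 < b
  dF : DifferentiableOn ℂ F (Sb b)
  dq : DifferentiableOn ℂ q (Sb b)
  wr : ∀ x ∈ Sb b, deriv (deriv q) x * deriv F x - deriv q x * deriv (deriv F) x +
    q x * deriv F x ^ 3 = (Λ : ℂ) ^ 3

/-- **the local world of (A4)** -/
structure LW (Λ b : ℝ) (F q : ℂ → ℂ) (e₀ : ℝ × ℝ) (ρ k : ℝ) (al p th : ℂ × ℂ → ℂ) : Prop where
  cv : Cv Λ b F q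
  ρ0 : 0 < ρ
  k0 : 0 < k
  k1 : k < 1
  dal : DifferentiableOn ℂ al (TB e₀ ρ (K2 k))
  dp : DifferentiableOn ℂ p (TB e₀ ρ (K2 k))
  dth : DifferentiableOn ℂ th (TB e₀ ρ (K1 k))
  mem : ∀ z ∈ TB e₀ ρ (K1 k), th z ∈ Sb b
  inc : ∀ z ∈ TB e₀ ρ (K1 k), Mi F q (al z) (p z) (th z) = 0
  smp : ∀ z ∈ TB e₀ ρ (K1 k), deriv (Mi F q (al z) (p z)) (th z) ≠ 0

/-- non-tangential limit `x` of `f` at `e` in the cone `K1 k` (all closed subcones, all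
apertures) -/
def NT (f : ℂ × ℂ → ℂ) (k : ℝ) (e : ℝ × ℝ) (x : ℂ) : Prop :=
  ∀ z₁ ∈ Tc (K1 k), Tendsto (fun a : ℝ × (ℂ × ℂ) => f (bl e a.1 a.2)) (𝓝[>] 0 ×ˢ 𝓝 z₁) (𝓝 x)

/-- the position continues over the window `e' + s • W` (as an interior simple root) -/
def RegW (b : ℝ) (F q : ℂ → ℂ) (al p th : ℂ × ℂ → ℂ) (T : Set (ℂ × ℂ)) (e' : ℝ × ℝ) (s : ℝ)
    (W : Set (ℂ × ℂ)) : Prop :=
  ∃ (V : Set (ℂ × ℂ)) (th' : ℂ × ℂ → ℂ), IsOpen V ∧ bl e' s '' W ⊆ V ∧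
    DifferentiableOn ℂ th' (T ∪ V) ∧ (∀ z ∈ T, th' z = th z) ∧
    (∀ z ∈ V, th' z ∈ Sb b ∧ Mi F q (al z) (p z) (th' z) = 0 ∧
      deriv (Mi F q (al z) (p z)) (th' z) ≠ 0)

/-- **(A4)** : at a.e. point with an interior limit (not an R2 point) there are regular windows at
comparable distance, at arbitrarily small scales -/
def A4 : Prop := ∀ {Λ b : ℝ} {F q : ℂ → ℂ} {e₀ : ℝ × ℝ} {ρ k : ℝ} {al p th : ℂ × ℂ → ℂ},
  LW Λ b F q e₀ ρ k al p th → ∀ W : Set (ℂ × ℂ), IsCompact W → W ⊆ Tc (K2 k) →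
  ∀ᵐ e : ℝ × ℝ, e ∈ ball e₀ ρ → (∃ x ∈ Sb b, deriv F x ≠ 0 ∧ NT th k e x) →
    ∃ c > 0, ∃ᶠ r in 𝓝[>] (0 : ℝ), ∃ e' ∈ closedBall e r,
      RegW b F q al p th (TB e₀ ρ (K1 k)) e' (c * r) W

/-- **row A4.7 (R2)** : the limit is an R2 point only on a null set -/
def R2n : Prop := ∀ {Λ b : ℝ} {F q : ℂ → ℂ} {e₀ : ℝ × ℝ} {ρ k : ℝ} {al p th : ℂ × ℂ → ℂ},
  LW Λ b F q e₀ ρ k al p th → (∀ c : ℂ, ¬ ∀ z ∈ TB e₀ ρ (K1 k), th z = c) →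
  ∀ᵐ e : ℝ × ℝ, e ∈ ball e₀ ρ → ∀ x ∈ Sb b, NT th k e x → deriv F x ≠ 0

/-! ### rows of (A4) -/

/-- **row A4.0 (EGOROV)** : compact pieces with uniform non-tangential limits -/
def Eg : Prop := ∀ {T : Set (ℂ × ℂ)} {f : ℂ × ℂ → ℂ} {e₀ : ℝ × ℝ} {ρ k : ℝ} {G : Set ℂ},
  0 < ρ → 0 < k → k < 1 → IsOpen G → DifferentiableOn ℂ f (TB e₀ ρ (K1 k)) →
  ∀ η > 0, ∃ (A : Set (ℝ × ℝ)) (fs : ℝ × ℝ → ℂ), IsCompact A ∧ A ⊆ ball e₀ ρ ∧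
    ContinuousOn fs A ∧
    volume ({e ∈ ball e₀ ρ | ∃ x ∈ G, NT f k e x} \ A) ≤ ENNReal.ofReal η ∧
    (∀ e ∈ A, fs e ∈ G ∧ NT f k e (fs e)) ∧
    ∀ k₁ < k, ∀ C > 0, ∀ ε > 0, ∃ δ > 0, ∀ e ∈ A, ∀ z ∈ TB e₀ ρ (K1 k₁),
      ‖ft z - e‖ ≤ C * z.1.im → z.1.im < δ → ‖f z - fs e‖ ≤ ε

/-- upper half disc around the real point `ξ` -/
def Hd (ξ R : ℝ) : Set ℂ := {ζ | ‖ζ - ξ‖ < R ∧ 0 < ζ.im}

/-- **row A4.1 (BISHOP)** : analytic discs `ζ ↦ (μ ζ, ζ)` through targets over almost every point of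
`A`, with boundary in the sawtooth over `A` (uniform form) -/
def Bish : Prop := ∀ {A : Set (ℝ × ℝ)}, IsCompact A → ∀ {ρ₀ C k' δ η : ℝ}, 0 < ρ₀ → 0 < C →
  0 < k' → k' < 1 → 0 < δ → 0 < η → ∃ A' ⊆ A, MeasurableSet A' ∧
    volume (A \ A') ≤ ENNReal.ofReal η ∧ ∃ c > 0, ∃ ρ₁ > 0, ∃ R > 0, ∃ r₀ > 0, R ≤ δ ∧
    ∀ e ∈ A', ∀ r : ℝ, 0 < r → r < r₀ → ∀ m ζ₁ : ℂ, |m.re - e.1| ≤ C * r → |ζ₁.re - e.2| ≤ C * r →
      ρ₀ * r ≤ m.im → m.im ≤ C * r → ρ₀ * r ≤ ζ₁.im → ζ₁.im ≤ C * r →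
      ∃ μ : ℂ → ℂ, DiffContOnCl ℂ μ (Hd ζ₁.re R) ∧ μ ζ₁ = m ∧
        (∀ ζ ∈ closure (Hd ζ₁.re R), ‖μ ζ - e.1‖ ≤ δ ∧ ρ₁ * r ≤ (μ ζ).im) ∧
        (∀ x : ℝ, |x - ζ₁.re| ≤ R → c * infDist ((μ x).re, x) A +
          ρ₁ * r ^ k' * (r + |x - ζ₁.re|) ^ (1 - k') ≤ (μ x).im) ∧
        (∀ ζ : ℂ, ‖ζ - ζ₁.re‖ = R → 0 ≤ ζ.im → ρ₁ ≤ (μ ζ).im)

/-- the data at a good sequence of scales: the rescaled lines converge on the whole tube over `K2`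
to the pencil of the point `x`, with a direction `al₀` -/
structure GS (F q : ℂ → ℂ) (k : ℝ) (al p : ℂ × ℂ → ℂ) (e : ℝ × ℝ) (x : ℂ) (r : ℕ → ℝ) (N : ℕ → ℤ)
    (al₀ p₀ : ℂ × ℂ → ℂ) : Prop where
  r0 : ∀ n, 0 < r n
  rt : Tendsto r atTop (𝓝 0)
  dal : DifferentiableOn ℂ al₀ (Tc (K2 k))
  dp : DifferentiableOn ℂ p₀ (Tc (K2 k))
  cal : TendstoLocallyUniformlyOn (fun n z => al (bl e (r n) z) - 2 * Real.pi * N n) al₀ atTop
    (Tc (K2 k))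
  cp : TendstoLocallyUniformlyOn (fun n z => p (bl e (r n) z)) p₀ atTop (Tc (K2 k))
  pen : ∀ z ∈ Tc (K2 k), Mi F q (al₀ z) (p₀ z) x = 0
  ne : ∀ z ∈ Tc (K1 k), Complex.sin (al₀ z - F x) ≠ 0
  up : ∀ Y : Set (ℝ × ℝ), IsCompact Y → Y ⊆ K2 k → ∃ (C : ℝ) (n : ℕ), ∀ z ∈ Tc Y,
    Real.log ‖Complex.sin (al₀ z - F x)‖ ≤ C * (1 + ‖ft z‖) ^ n
  lo : ∀ Y : Set (ℝ × ℝ), IsCompact Y → Y ⊆ K1 k → ∃ (C : ℝ) (n : ℕ), ∀ z ∈ Tc Y,
    -Real.log ‖Complex.sin (al₀ z - F x)‖ ≤ C * (1 + ‖ft z‖) ^ n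

/-- **rows A4.2-4 (dichotomy, chain, incidence, excursions)** : good scales at a.e. point.
Shrinking of `k` is allowed (`k' < k` arbitrary close). -/
def Gsc : Prop := ∀ {Λ b : ℝ} {F q : ℂ → ℂ} {e₀ : ℝ × ℝ} {ρ k : ℝ} {al p th : ℂ × ℂ → ℂ},
  LW Λ b F q e₀ ρ k al p th → ∀ k' : ℝ, 0 < k' → k' < k →
  ∀ᵐ e : ℝ × ℝ, e ∈ ball e₀ ρ → ∀ x ∈ Sb b, deriv F x ≠ 0 → NT th k e x →
    ∃ (r : ℕ → ℝ) (N : ℕ → ℤ) (al₀ p₀ : ℂ × ℂ → ℂ), GS F q k' al p e x r N al₀ p₀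

/-- **row A4.5 (T-LEMMA)** -/
def Tlem : Prop := ∀ {k : ℝ} {S : ℂ × ℂ → ℂ}, 0 < k → k < 1 → DifferentiableOn ℂ S (Tc (K2 k)) →
  (∀ z ∈ Tc (K1 k), S z ≠ 0) →
  (∀ Y : Set (ℝ × ℝ), IsCompact Y → Y ⊆ K2 k → ∃ (C : ℝ) (n : ℕ), ∀ z ∈ Tc Y,
    Real.log ‖S z‖ ≤ C * (1 + ‖ft z‖) ^ n) →
  (∀ Y : Set (ℝ × ℝ), IsCompact Y → Y ⊆ K1 k → ∃ (C : ℝ) (n : ℕ), ∀ z ∈ Tc Y,
    -Real.log ‖S z‖ ≤ C * (1 + ‖ft z‖) ^ n) →
  ∀ W : Set (ℂ × ℂ), IsCompact W → W ⊆ Tc (K2 k) →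
    ∃ᶠ s in 𝓝[>] (0 : ℝ), ∃ x' ∈ closedBall (0 : ℝ × ℝ) 1, ∀ z ∈ W, S (bl x' s z) ≠ 0

/-- **row A4.6 (WINDOW)** : a window without zeros of `sin (al₀ - F x)` is regular -/
def Wnd : Prop := ∀ {Λ b : ℝ} {F q : ℂ → ℂ} {e₀ : ℝ × ℝ} {ρ k : ℝ} {al p th : ℂ × ℂ → ℂ},
  LW Λ b F q e₀ ρ k al p th → ∀ {k' : ℝ}, 0 < k' → k' < k → ∀ {e : ℝ × ℝ} {x : ℂ}, e ∈ ball e₀ ρ →
  x ∈ Sb b → deriv F x ≠ 0 → NT th k e x → ∀ {r : ℕ → ℝ} {N : ℕ → ℤ} {al₀ p₀ : ℂ × ℂ → ℂ},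
  GS F q k' al p e x r N al₀ p₀ → ∀ {W : Set (ℂ × ℂ)}, IsCompact W → Convex ℝ W →
  W ⊆ Tc (K2 k') → (W ∩ Tc (K1 k')).Nonempty → ∀ {s : ℝ} {x' : ℝ × ℝ}, 0 < s → x' ∈ closedBall (0 : ℝ × ℝ) 1 →
  (∀ z ∈ W, Complex.sin (al₀ (bl x' s z) - F x) ≠ 0) →
  ∀ᶠ n in atTop, RegW b F q al p th (TB e₀ ρ (K1 k)) (e + r n • x') (s * r n) W

/-! ### the glue -/

theorem RegW.mono {b : ℝ} {F q : ℂ → ℂ} {al p th : ℂ × ℂ → ℂ} {T : Set (ℂ × ℂ)} {e' : ℝ × ℝ} {s : ℝ}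
    {W W' : Set (ℂ × ℂ)} (h : RegW b F q al p th T e' s W') (hW : W ⊆ W') :
    RegW b F q al p th T e' s W := by
  obtain ⟨V, th', h1, h2, h3⟩ := h
  exact ⟨V, th', h1, (image_mono hW).trans h2, h3⟩

theorem K2_mono {k k' : ℝ} (h0 : 0 < k') (h : k' ≤ k) (h1 : k < 1) : K2 k' ⊆ K2 k := by
  rintro ⟨a, c⟩ ⟨h2, h3⟩
  simp only [K2, mem_setOf_eq] at h2 h3 ⊢
  have e1 : 0 < (1 - k' * k') := by nlinarith
  constructor
  · rcases le_or_gt 0 c with hc | hc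
    · nlinarith
    · have ha : 0 < a := by nlinarith
      have : 0 < (1 - k * k') := by nlinarith
      nlinarith [mul_pos this ha]
  · rcases le_or_gt 0 a with hc | hc
    · nlinarith
    · have ha : 0 < c := by nlinarith
      have : 0 < (1 - k * k') := by nlinarith
      nlinarith [mul_pos this ha]

theorem convex_K2 (k : ℝ) : Convex ℝ (K2 k) := by
  intro x hx y hy a c ha hc hac
  simp only [K2, mem_setOf_eq, Prod.fst_add, Prod.smul_fst, smul_eq_mul, Prod.snd_add,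
    Prod.smul_snd] at hx hy ⊢
  rcases ha.eq_or_lt with h | h
  · have : c = 1 := by linarith
    subst this
    rw [← h]
    constructor <;> linarith [hy.1, hy.2]
  · have h1 := mul_pos h hx.1
    have h2 := mul_nonneg hc hy.1.le
    have h3 := mul_pos h hx.2
    have h4 := mul_nonneg hc hy.2.le
    constructor <;> nlinarith

theorem isOpen_K2 (k : ℝ) : IsOpen (K2 k) :=
  (isOpen_lt continuous_const (continuous_fst.add (continuous_const.mul continuous_snd))).inter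
    (isOpen_lt continuous_const (continuous_snd.add (continuous_const.mul continuous_fst)))

theorem continuous_ht : Continuous ht := by
  unfold ht
  fun_prop

theorem isOpen_Tc2 (k : ℝ) : IsOpen (Tc (K2 k)) := (isOpen_K2 k).preimage continuous_ht

theorem convex_Tc {K : Set (ℝ × ℝ)} (h : Convex ℝ K) : Convex ℝ (Tc K) := by
  intro x hx y hy a c ha hc hac
  have := h hx hy ha hc hac
  simpa [Tc, ht] using this

theorem exists_k {k : ℝ} (h0 : 0 < k) (h1 : k < 1) {W : Set (ℂ × ℂ)} (hW : IsCompact W)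
    (hs : W ⊆ Tc (K2 k)) : ∃ k', 0 < k' ∧ k' < k ∧ W ⊆ Tc (K2 k') := by
  have hcov : W ⊆ ⋃ n : ℕ, Tc (K2 (k - k / (n + 2))) := by
    intro z hz
    obtain ⟨h2, h3⟩ := hs hz
    rw [mem_iUnion]
    have t1 : Tendsto (fun n : ℕ => k - k / ((n : ℝ) + 2)) atTop (𝓝 k) := by
      have : Tendsto (fun n : ℕ => k / ((n : ℝ) + 2)) atTop (𝓝 0) :=
        tendsto_const_nhds.div_atTop (tendsto_atTop_add_const_right _ _
          tendsto_natCast_atTop_atTop)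
      simpa using tendsto_const_nhds.sub this
    have t2 : ∀ᶠ n : ℕ in atTop, 0 < (ht z).1 + (k - k / ((n : ℝ) + 2)) * (ht z).2 :=
      (tendsto_const_nhds.add (t1.mul tendsto_const_nhds)).eventually_const_lt h2
    have t3 : ∀ᶠ n : ℕ in atTop, 0 < (ht z).2 + (k - k / ((n : ℝ) + 2)) * (ht z).1 :=
      (tendsto_const_nhds.add (t1.mul tendsto_const_nhds)).eventually_const_lt h3
    obtain ⟨n, hn⟩ := (t2.and t3).exists
    exact ⟨n, hn⟩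
  obtain ⟨t, ht'⟩ := hW.elim_finite_subcover _ (fun n => isOpen_Tc2 _) hcov
  set N := t.sup id with hN
  have hkn : ∀ n : ℕ, 0 < k - k / ((n : ℝ) + 2) ∧ k - k / ((n : ℝ) + 2) < k := by
    intro n
    have h4 : (0 : ℝ) < (n : ℝ) + 2 := by positivity
    have h5 : 0 < k / ((n : ℝ) + 2) := div_pos h0 h4
    have h6 : k / ((n : ℝ) + 2) < k := by
      rw [div_lt_iff₀ h4]; nlinarith [(Nat.cast_nonneg n : (0 : ℝ) ≤ n)]
    constructor <;> linarith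
  refine ⟨k - k / ((N : ℝ) + 2), (hkn N).1, (hkn N).2, fun z hz => ?_⟩
  obtain ⟨n, hn, hz'⟩ := mem_iUnion₂.1 (ht' hz)
  have hnN : n ≤ N := Finset.le_sup (f := id) hn
  refine K2_mono (hkn n).1 ?_ ((hkn N).2.trans h1) hz'
  have h4 : (0 : ℝ) < (n : ℝ) + 2 := by positivity
  have h5 : (n : ℝ) + 2 ≤ (N : ℝ) + 2 := by
    have : (n : ℝ) ≤ N := by exact_mod_cast hnN
    linarith
  have := div_le_div_of_nonneg_left h0.le h4 h5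
  linarith

/-- a compact subset of an open convex set lies in a polytope inside -/
theorem exists_poly {U W : Set (ℂ × ℂ)} (hU : IsOpen U) (hc : Convex ℝ U) (hW : IsCompact W)
    (h : W ⊆ U) : ∃ u : Set (ℂ × ℂ), u.Finite ∧ W ⊆ convexHull ℝ u ∧ u ⊆ U := by
  have h1 : ∀ x ∈ W, ∃ u : Finset (ℂ × ℂ), x ∈ interior (convexHull ℝ (u : Set (ℂ × ℂ))) ∧
      convexHull ℝ (u : Set (ℂ × ℂ)) ⊆ U := by
    intro x hx
    obtain ⟨u, h2, h3⟩ := (convex_singleton (𝕜 := ℝ) x).exists_subset_interior_convexHull_finset_of_isCompact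
      isCompact_singleton (t := U) (by rw [nhdsSet_singleton]; exact hU.mem_nhds (h hx))
    exact ⟨u, h2 rfl, h3⟩
  choose! f hf hfU using h1
  obtain ⟨t, ht1, ht2, ht3⟩ := hW.elim_finite_subcover_image (b := W)
    (c := fun x => interior (convexHull ℝ (f x : Set (ℂ × ℂ)))) (fun _ _ => isOpen_interior)
    (fun x hx => mem_iUnion₂_of_mem hx (hf x hx))
  refine ⟨⋃ x ∈ t, (f x : Set (ℂ × ℂ)), ht2.biUnion fun x _ => (f x).finite_toSet, ?_, ?_⟩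
  · refine ht3.trans (iUnion₂_subset fun x hx => interior_subset.trans
      (convexHull_mono (subset_iUnion₂ (s := fun x _ => (f x : Set (ℂ × ℂ))) x hx)))
  · exact iUnion₂_subset fun x hx => (subset_convexHull ℝ _).trans (hfU x (ht1 hx))

/-- the glue of (A4) -/
theorem a4_of (hG : Gsc) (hT : Tlem) (hW : Wnd) : A4 := by
  intro Λ b F q e₀ ρ k al p th L W hWc hWs
  obtain ⟨k', hk0, hkk, hWk⟩ := exists_k L.k0 L.k1 hWc hWs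
  have hk1 : k' < 1 := hkk.trans L.k1
  set z₁ : ℂ × ℂ := (I, 0) with hz₁
  have hz1 : z₁ ∈ Tc (K1 k') := by simp [Tc, K1, ht, hz₁, hk0]
  have hz2 : z₁ ∈ Tc (K2 k') := by simp [Tc, K2, ht, hz₁, hk0]
  obtain ⟨u, hu1, hu2, hu3⟩ := exists_poly (isOpen_Tc2 k') (convex_Tc (convex_K2 k')) hWc hWk
  set W' : Set (ℂ × ℂ) := convexHull ℝ (insert z₁ u) with hW'
  have c1 : IsCompact W' := (hu1.insert z₁).isCompact_convexHull ℝ
  have c2 : Convex ℝ W' := convex_convexHull ℝ _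
  have c3 : W' ⊆ Tc (K2 k') :=
    convexHull_min (insert_subset hz2 hu3) (convex_Tc (convex_K2 k'))
  have c4 : z₁ ∈ W' := subset_convexHull ℝ _ (mem_insert _ _)
  have c5 : W ⊆ W' := hu2.trans (convexHull_mono (subset_insert _ _))
  filter_upwards [hG L k' hk0 hkk] with e he heb hx
  obtain ⟨x, hx1, hx2, hx3⟩ := hx
  obtain ⟨r, N, al₀, p₀, G⟩ := he heb x hx1 hx2 hx3
  have hS : DifferentiableOn ℂ (fun z => Complex.sin (al₀ z - F x)) (Tc (K2 k')) :=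
    (G.dal.sub_const _).csin
  have hfr := hT hk0 hk1 hS G.ne G.up G.lo W' c1 c3
  obtain ⟨s, ⟨x', hx', hs'⟩, hs⟩ := (hfr.and_eventually self_mem_nhdsWithin).exists
  have hs0 : 0 < s := hs
  have hev := hW L hk0 hkk heb hx1 hx2 hx3 G c1 c2 c3 ⟨z₁, c4, hz1⟩ hs0 hx' hs'
  refine ⟨s, hs0, ?_⟩
  have hr : Tendsto r atTop (𝓝[>] 0) := tendsto_nhdsWithin_iff.2 ⟨G.rt, Eventually.of_forall G.r0⟩
  refine hr.frequently (hev.frequently.mono fun n hn => ⟨e + r n • x', ?_, hn.mono c5⟩)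
  rw [mem_closedBall, dist_eq_norm, add_sub_cancel_left, norm_smul, Real.norm_of_nonneg (G.r0 n).le]
  have := mem_closedBall_zero_iff.1 hx'
  nlinarith [G.r0 n]

end Vale.Agent.P097.TC
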