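import Vale.Agent.P097.TC.Defs
import Vale.Agent.P097.H929.World

/-!
# P097 / case [c] / (A5) (and (A4) = nested points with interior limits): typed Props

Text: helper624, notes 14974, 14975, 15067 with (8') of 15683, 15751.
`W5` = the world near a point `(y₀, u₀)` of the edge; `Sq` = a sequence of edge points
`(y n, u n) → (y₀, u₀)`; `Tou` = TOUCH along this sequence (layer: all sequences; interior limits:
the constant sequence).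
`Nst` = nested point: mid-level at ALL scales of the vertical, close to a non R2 position at
all scales.  `PW`, `PAI`, `PT` = the three Props.
-/

set_option linter.all false

open Complex Metric Filter Topology Set MeasureTheory
open scoped ComplexConjugate ENNReal

namespace Vale.Agent.P097.A5

open Vale.Agent.P097.TC Vale.Agent.P097.H85 Vale.Agent.P097.H929

/-- growth of the curve near the natural boundary (output of block G, every exponent) -/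
def Gro (H : ℝ) (F q : ℂ → ℂ) : Prop :=
  ∀ a : ℝ, 0 < a → ∃ C : ℝ, 0 < C ∧ ∀ x ∈ Sb H,
    ‖F x - 2 * Real.pi * x‖ ≤ Real.exp (C * (H - |x.im|) ^ (-a)) ∧
    ‖deriv F x‖ ≤ Real.exp (C * (H - |x.im|) ^ (-a)) ∧
    ‖q x‖ ≤ Real.exp (Real.exp (C * (H - |x.im|) ^ (-a))) ∧
    ‖deriv q x‖ ≤ Real.exp (Real.exp (C * (H - |x.im|) ^ (-a)))

/-- the curve -/
structure Crv (Λ H : ℝ) (F q : ℂ → ℂ) : Prop where
  cv : Cv Λ H F q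
  Fp : ∀ x ∈ Sb H, F (x + 1) = F x + 2 * Real.pi
  qp : ∀ x ∈ Sb H, q (x + 1) = q x
  gro : Gro H F q

/-- the blown up wide cone -/
def Wd (s : ℝ) : Set (ℂ × ℂ) := {p | 0 < p.2.im ∧ p.1.im < s * p.2.im}

/-- the blown up narrow cone -/
def Nr : Set (ℂ × ℂ) := {p | p.1.im < 0 ∧ 0 < p.2.im}

/-- the vertical over `(y, u)`, depth `S` -/
noncomputable def vp (P : ℝ → ℂ) (y u S : ℝ) : ℂ × ℂ := ((y : ℂ) + ((P u).im - S : ℝ) * I, (u : ℂ))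

/-- the domain of the position -/
def Dm (Mj Mk : Set (ℂ × ℂ)) : Set (ℂ × ℂ) := Mj ∩ Mk ∩ {z | z.2 ≠ 0}

/-- **the world** at `(y₀, u₀)`. `H` = half width of the strip of the curve, `b` = lower level, `Mk`, `Mj` =
domains of the lines `L_k`, `L_j` (85's form), `B` = native domain (two-sided in `w`), `A` = labels,
`(P u).im` = height of the edge at the label `u`, `c u` its derivative, `K` = slope of the two-sided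
cone, `σ` = exact slope of `L_j` at `(y₀, u₀)`, `s` = slope of `L_k`, `J` = Jacobian of the lines. -/
structure W5 (Λ H : ℝ) (F q : ℂ → ℂ) (b m : ℝ) (Ψ : ℂ → ℂ) (Mj Mk B : Set (ℂ × ℂ)) (A : Set ℝ)
    (P : ℝ → ℂ) (c k : ℝ → ℝ) (K y₀ u₀ σ s : ℝ) (al p th : ℂ × ℂ → ℂ) (J : ℂ → ℂ) : Prop where
  crv : Crv Λ H F q
  -- geometry
  bm : b < m
  cA : IsCompact A
  u0 : u₀ ∈ A
  uz : ∀ u ∈ A, u ≠ 0
  cR : ContinuousOn (fun u => (P u).im) A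
  cc : ContinuousOn c A
  hb : ∀ u ∈ A, b < (P u).im
  σs : σ < s
  rhj : RH b Mj
  rhk : RH b Mk
  Uj : CmpU Mj b m Ψ A P c k
  Uk : CmpU Mk b m Ψ A P c k
  regj : ∀ δ > 0, RegB Mj b A P c y₀ u₀ (σ - δ)
  regk : ∀ δ > 0, RegB Mk b A P c y₀ u₀ (s - δ)
  -- native domain, two-sided cones over `A`
  oB : IsOpen B
  Bj : B ⊆ Mj
  Bk : B ⊆ Mk
  K0 : 0 < K
  coneU : ∀ ε > 0, ∃ δ > 0, ∀ u ∈ A, ∀ v : ℂ, ‖v‖ < δ → ∀ t : ℂ, b < t.im →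
    t.im < (P u).im + c u * v.re - K * |v.im| - ε * ‖v‖ → (t, (u : ℂ) + v) ∈ B
  -- functions
  dal : DifferentiableOn ℂ al Mk
  dp : DifferentiableOn ℂ p Mk
  dth : DifferentiableOn ℂ th (Dm Mj Mk)
  mem : ∀ z ∈ Dm Mj Mk, th z ∈ Sb H
  inc : ∀ z ∈ Dm Mj Mk, Mi F q (al z) (p z) (th z) = 0
  smp : ∀ z ∈ Dm Mj Mk, deriv (Mi F q (al z) (p z)) (th z) ≠ 0
  area : ∀ z ∈ Mk, fderiv ℂ al z (1, 0) * fderiv ℂ p z (0, 1) -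
    fderiv ℂ al z (0, 1) * fderiv ℂ p z (1, 0) = J z.2
  cJ : ContinuousAt J (u₀ : ℂ)
  J0 : J u₀ ≠ 0

/-- a sequence of edge points -/
structure Sq (A : Set ℝ) (y₀ u₀ : ℝ) (y u : ℕ → ℝ) : Prop where
  yt : Tendsto y atTop (𝓝 y₀)
  ut : Tendsto u atTop (𝓝 u₀)
  uA : ∀ n, u n ∈ A

/-- **TOUCH** along the sequence: the position has no extension near any point of the edge of the
blown up narrow cone -/
def Tou (H : ℝ) (P : ℝ → ℂ) (c : ℝ → ℝ) (u₀ σ : ℝ) (th : ℂ × ℂ → ℂ) (y u : ℕ → ℝ) : Prop :=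
  ∀ r : ℕ → ℝ, Tendsto r atTop (𝓝[>] 0) → ∀ w₀ : ℂ, 0 < w₀.im → |w₀.re| ≤ w₀.im / 2 →
    ∀ (a δ₀ : ℝ), 0 < δ₀ → ∃ ε > 0, ∀ᶠ n in atTop, ¬ ∃ g : ℂ × ℂ → ℂ,
      DifferentiableOn ℂ g (ball ((a : ℂ), w₀) δ₀) ∧ ∀ z ∈ ball ((a : ℂ), w₀) δ₀, g z ∈ Sb H ∧
        (z.1.im ≤ -ε → g z = th (kpt (P (u n)).im (c u₀) σ (y n) (u n) (r n) z))

/-- **nested point** `(y, u)`: all windows below the depth `h` are mid-level, and at bounded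
distance from a non R2 position -/
structure Nst (H b : ℝ) (F : ℂ → ℂ) (P : ℝ → ℂ) (th : ℂ × ℂ → ℂ) (C c₁ h y u : ℝ) : Prop where
  h0 : 0 < h
  hb : b < (P u).im - C * h
  mid : ∀ S : ℝ, 0 < S → S < h → |(th (vp P y u S)).im| ≤ (1 - c₁) * H
  nr2 : ∀ S : ℝ, 0 < S → S < h → ∃ (y' S' : ℝ), |y' - y| ≤ C * S ∧ S ≤ C * S' ∧ S' ≤ C * S ∧
    c₁ ≤ ‖deriv F (th (vp P y' u S'))‖

/-- `i log E_j = al_k - F (θ_j)` -/
noncomputable def del (F : ℂ → ℂ) (al th : ℂ × ℂ → ℂ) (z : ℂ × ℂ) : ℂ := al z - F (th z)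

/-- the lines converge along the ultrafilter, on the wide cone: honest line -/
def Hon (F q : ℂ → ℂ) (s : ℝ) (al p : ℂ × ℂ → ℂ) (φ : ℕ → ℂ × ℂ → ℂ × ℂ) (𝒰 : Ultrafilter ℕ) :
    Prop :=
  ∃ (N : ℕ → ℤ) (al' p' : ℂ × ℂ → ℂ), DifferentiableOn ℂ al' (Wd s) ∧ DifferentiableOn ℂ p' (Wd s) ∧
    TendstoLocallyUniformlyOn (fun n z => al (φ n z) - 2 * Real.pi * N n) al' (𝒰 : Filter ℕ) (Wd s) ∧
    TendstoLocallyUniformlyOn (fun n z => p (φ n z)) p' (𝒰 : Filter ℕ) (Wd s)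

/-- the lines converge to isotropic lines along the ultrafilter (sign `ε = 1` or `-1`) -/
def Iso (F q : ℂ → ℂ) (s : ℝ) (al p : ℂ × ℂ → ℂ) (φ : ℕ → ℂ × ℂ → ℂ × ℂ) (𝒰 : Ultrafilter ℕ)
    (ε : ℂ) : Prop :=
  ∃ B' : ℂ × ℂ → ℂ, DifferentiableOn ℂ B' (Wd s) ∧
    TendstoLocallyUniformlyOn (fun n z => exp (ε * (2 * I * al (φ n z)))) (fun _ => 0)
      (𝒰 : Filter ℕ) (Wd s) ∧
    TendstoLocallyUniformlyOn (fun n z => 2 * p (φ n z) * exp (ε * (I * al (φ n z)))) B'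
      (𝒰 : Filter ℕ) (Wd s)

/-- `Im del` on the vertical over the `n`-th point, depth `S` -/
noncomputable def Vn (F : ℂ → ℂ) (P : ℝ → ℂ) (al th : ℂ × ℂ → ℂ) (y u : ℕ → ℝ) (n : ℕ) (S : ℝ) : ℝ :=
  (del F al th (vp P (y n) (u n) S)).im

/-- **record form**: for all top scales `G` there are thresholds `ρ` such that the lines are normal at
all windows `r n ≤ ρ n` which are records of `|Im del|` (up to factor 2) between `r n` and `G n`: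
honest lines if `Im del` is bounded, isotropic lines if it tends to infinity -/
def LN (F q : ℂ → ℂ) (P : ℝ → ℂ) (c : ℝ → ℝ) (u₀ σ s : ℝ) (al p th : ℂ × ℂ → ℂ)
    (y u g : ℕ → ℝ) : Prop :=
  ∀ G : ℕ → ℝ, (∀ n, 0 < G n ∧ G n ≤ g n) → ∃ ρ : ℕ → ℝ, (∀ n, 0 < ρ n ∧ ρ n ≤ G n) ∧
    ∀ r : ℕ → ℝ, (∀ n, 0 < r n ∧ r n ≤ ρ n) → Tendsto r atTop (𝓝 0) →
    ∀ 𝒰 : Ultrafilter ℕ, (𝒰 : Filter ℕ) ≤ atTop → ∀ V₀ : ℝ,
    (∀ᶠ n in (𝒰 : Filter ℕ), ∀ S : ℝ, r n ≤ S → S ≤ G n →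
      |Vn F P al th y u n S| ≤ 2 * |Vn F P al th y u n (r n)| + V₀) →
    ((∀ᶠ n in (𝒰 : Filter ℕ), |Vn F P al th y u n (r n)| ≤ V₀) →
      Hon F q (s - σ) al p (fun n => kpt (P (u n)).im (c u₀) σ (y n) (u n) (r n)) 𝒰) ∧
    (Tendsto (fun n => Vn F P al th y u n (r n)) (𝒰 : Filter ℕ) atTop →
      Iso F q (s - σ) al p (fun n => kpt (P (u n)).im (c u₀) σ (y n) (u n) (r n)) 𝒰 1) ∧
    (Tendsto (fun n => Vn F P al th y u n (r n)) (𝒰 : Filter ℕ) atBot →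
      Iso F q (s - σ) al p (fun n => kpt (P (u n)).im (c u₀) σ (y n) (u n) (r n)) 𝒰 (-1))

/-- **bounded form**: `|Im del| ≤ V₁` at all late scales, honest lines at all late windows -/
structure LNb (F q : ℂ → ℂ) (P : ℝ → ℂ) (c : ℝ → ℝ) (u₀ σ s : ℝ) (al p th : ℂ × ℂ → ℂ)
    (y u g : ℕ → ℝ) (V₁ : ℝ) : Prop where
  bd : ∀ᶠ n in atTop, ∀ S : ℝ, 0 < S → S ≤ g n → |Vn F P al th y u n S| ≤ V₁
  hon : ∀ r : ℕ → ℝ, (∀ n, 0 < r n ∧ r n ≤ g n) →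
    ∀ 𝒰 : Ultrafilter ℕ, (𝒰 : Filter ℕ) ≤ atTop →
      Hon F q (s - σ) al p (fun n => kpt (P (u n)).im (c u₀) σ (y n) (u n) (r n)) 𝒰

/-- all windows `r ≤ g n` of the sequence are tangential up to `o(1)` -/
def TT (F : ℂ → ℂ) (P : ℝ → ℂ) (al th : ℂ × ℂ → ℂ) (y u g : ℕ → ℝ) : Prop :=
  ∀ ε > 0, ∀ᶠ n in atTop, ∀ r : ℝ, 0 < r → r ≤ g n →
    ‖Complex.sin (del F al th (vp P (y n) (u n) r))‖ ≤ ε

/-- **PW** (block W) : at a.e. label, the lines are normal on the wide cone at the records of a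
nested sequence -/
def PW : Prop := ∀ {Λ H : ℝ} {F q : ℂ → ℂ} {b m : ℝ} {Ψ : ℂ → ℂ} {Mj Mk B : Set (ℂ × ℂ)} {A : Set ℝ}
  {P : ℝ → ℂ} {c k : ℝ → ℝ} {K s : ℝ} {al p th : ℂ × ℂ → ℂ} {J : ℂ → ℂ},
  ∃ Nl : Set ℝ, volume Nl = 0 ∧ ∀ {y₀ u₀ σ : ℝ} {y u : ℕ → ℝ},
    W5 Λ H F q b m Ψ Mj Mk B A P c k K y₀ u₀ σ s al p th J → Sq A y₀ u₀ y u →
    Tou H P c u₀ σ th y u → (∀ n, u n ∉ Nl) → ∀ {C c₁ : ℝ}, 0 < C → 0 < c₁ → ∀ {h : ℕ → ℝ},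
    (∀ n, Nst H b F P th C c₁ (h n) (y n) (u n)) →
    ∃ g : ℕ → ℝ, (∀ n, 0 < g n ∧ g n < h n) ∧ LN F q P c u₀ σ s al p th y u g

/-- **PAI** (block AI) : cases (A), (I) are impossible: all late windows are tangential and the
lines are honest -/
def PAI : Prop := ∀ {Λ H : ℝ} {F q : ℂ → ℂ} {b m : ℝ} {Ψ : ℂ → ℂ} {Mj Mk B : Set (ℂ × ℂ)}
  {A : Set ℝ} {P : ℝ → ℂ} {c k : ℝ → ℝ} {K s y₀ u₀ σ : ℝ} {al p th : ℂ × ℂ → ℂ} {J : ℂ → ℂ}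
  {y u : ℕ → ℝ}, W5 Λ H F q b m Ψ Mj Mk B A P c k K y₀ u₀ σ s al p th J → Sq A y₀ u₀ y u →
    Tou H P c u₀ σ th y u → ∀ {C c₁ : ℝ}, 0 < C → 0 < c₁ → ∀ {h g : ℕ → ℝ},
    (∀ n, Nst H b F P th C c₁ (h n) (y n) (u n)) → (∀ n, 0 < g n ∧ g n < h n) →
    LN F q P c u₀ σ s al p th y u g →
    ∃ (g₁ : ℕ → ℝ) (V₁ : ℝ), (∀ n, 0 < g₁ n ∧ g₁ n ≤ g n) ∧ Tendsto g₁ atTop (𝓝 0) ∧
      LNb F q P c u₀ σ s al p th y u g₁ V₁ ∧ TT F P al th y u g₁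

/-- **PT** (block T) : tangential windows at all late scales of nested points with walls nearby
(same label) are impossible; TOUCH is available along ALL sequences of edge points -/
def PT : Prop := ∀ {Λ H : ℝ} {F q : ℂ → ℂ} {b m : ℝ} {Ψ : ℂ → ℂ} {Mj Mk B : Set (ℂ × ℂ)}
  {A : Set ℝ} {P : ℝ → ℂ} {c k : ℝ → ℝ} {K s : ℝ} {al p th : ℂ × ℂ → ℂ} {J : ℂ → ℂ},
  ∃ Nl : Set ℝ, volume Nl = 0 ∧ ∀ {y₀ u₀ σ : ℝ} {y u : ℕ → ℝ},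
    W5 Λ H F q b m Ψ Mj Mk B A P c k K y₀ u₀ σ s al p th J → Sq A y₀ u₀ y u →
    (∀ y' u' : ℕ → ℝ, Sq A y₀ u₀ y' u' → Tou H P c u₀ σ th y' u') → (∀ n, u n ∉ Nl) →
    ∀ {C c₁ : ℝ}, 0 < C → 0 < c₁ → ∀ {h g : ℕ → ℝ} {V₁ : ℝ},
    (∀ n, Nst H b F P th C c₁ (h n) (y n) (u n)) → (∀ n, 0 < g n ∧ g n < h n) →
    Tendsto g atTop (𝓝 0) → LNb F q P c u₀ σ s al p th y u g V₁ → TT F P al th y u g →
    ∀ {d : ℝ}, 0 < d → (∀ n, ∀ᵐ y' : ℝ, |y' - y₀| < d →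
      Tendsto (fun S : ℝ => |(th (vp P y' (u n) S)).im|) (𝓝[>] 0) (𝓝 H)) → False

/-- consequence at the layer: no nested sequence with walls nearby -/
theorem no_nest (hW : PW) (hA : PAI) (hT : PT) {Λ H : ℝ} {F q : ℂ → ℂ} {b m : ℝ} {Ψ : ℂ → ℂ}
    {Mj Mk B : Set (ℂ × ℂ)} {A : Set ℝ} {P : ℝ → ℂ} {c k : ℝ → ℝ} {K s : ℝ}
    {al p th : ℂ × ℂ → ℂ} {J : ℂ → ℂ} :
    ∃ Nl : Set ℝ, volume Nl = 0 ∧ ∀ {y₀ u₀ σ : ℝ} {y u : ℕ → ℝ},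
      W5 Λ H F q b m Ψ Mj Mk B A P c k K y₀ u₀ σ s al p th J → Sq A y₀ u₀ y u →
      (∀ y' u' : ℕ → ℝ, Sq A y₀ u₀ y' u' → Tou H P c u₀ σ th y' u') → (∀ n, u n ∉ Nl) →
      ∀ {C c₁ : ℝ}, 0 < C → 0 < c₁ → ∀ {h : ℕ → ℝ},
      (∀ n, Nst H b F P th C c₁ (h n) (y n) (u n)) →
      ∀ {d : ℝ}, 0 < d → (∀ n, ∀ᵐ y' : ℝ, |y' - y₀| < d →
        Tendsto (fun S : ℝ => |(th (vp P y' (u n) S)).im|) (𝓝[>] 0) (𝓝 H)) → False := by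
  obtain ⟨Nl, h0, h1⟩ := hW (Λ := Λ) (H := H) (F := F) (q := q) (b := b) (m := m) (Ψ := Ψ)
    (Mj := Mj) (Mk := Mk) (B := B) (A := A) (P := P) (c := c) (k := k) (K := K) (s := s)
    (al := al) (p := p) (th := th) (J := J)
  obtain ⟨Nt, h0', h1'⟩ := hT (Λ := Λ) (H := H) (F := F) (q := q) (b := b) (m := m) (Ψ := Ψ)
    (Mj := Mj) (Mk := Mk) (B := B) (A := A) (P := P) (c := c) (k := k) (K := K) (s := s)
    (al := al) (p := p) (th := th) (J := J)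
  refine ⟨Nl ∪ Nt, measure_union_null h0 h0',
    fun {y₀ u₀ σ y u} W hS hTo hu {C c₁} hC hc {h} hN {d} hd hw => ?_⟩
  obtain ⟨g, hg, L⟩ := h1 W hS (hTo y u hS) (fun n hn => hu n (Or.inl hn)) hC hc hN
  obtain ⟨g₁, V₁, a1, a2, a3, a4⟩ := hA W hS (hTo y u hS) hC hc hN hg L
  exact h1' W hS hTo (fun n hn => hu n (Or.inr hn)) hC hc hN
    (fun n => ⟨(a1 n).1, (a1 n).2.trans_lt (hg n).2⟩) a2 a3 a4 hd hw

/-- consequence at a nested point (constant sequence): the vertical is tangential -/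
theorem tan_of (hW : PW) (hA : PAI) {Λ H : ℝ} {F q : ℂ → ℂ} {b m : ℝ} {Ψ : ℂ → ℂ}
    {Mj Mk B : Set (ℂ × ℂ)} {A : Set ℝ} {P : ℝ → ℂ} {c k : ℝ → ℝ} {K s : ℝ}
    {al p th : ℂ × ℂ → ℂ} {J : ℂ → ℂ} :
    ∃ Nl : Set ℝ, volume Nl = 0 ∧ ∀ {y₀ u₀ σ : ℝ},
      W5 Λ H F q b m Ψ Mj Mk B A P c k K y₀ u₀ σ s al p th J →
      Tou H P c u₀ σ th (fun _ => y₀) (fun _ => u₀) → u₀ ∉ Nl →
      ∀ {C c₁ h : ℝ}, 0 < C → 0 < c₁ → Nst H b F P th C c₁ h y₀ u₀ →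
      Tendsto (fun r : ℝ => Complex.sin (del F al th (vp P y₀ u₀ r))) (𝓝[>] 0) (𝓝 0) := by
  obtain ⟨Nl, h0, h1⟩ := hW (Λ := Λ) (H := H) (F := F) (q := q) (b := b) (m := m) (Ψ := Ψ)
    (Mj := Mj) (Mk := Mk) (B := B) (A := A) (P := P) (c := c) (k := k) (K := K) (s := s)
    (al := al) (p := p) (th := th) (J := J)
  refine ⟨Nl, h0, fun {y₀ u₀ σ} W hTo hu {C c₁ h} hC hc hN => ?_⟩
  have hS : Sq A y₀ u₀ (fun _ => y₀) (fun _ => u₀) :=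
    ⟨tendsto_const_nhds, tendsto_const_nhds, fun _ => W.u0⟩
  obtain ⟨g, hg, L⟩ := h1 W hS hTo (fun _ => hu) hC hc (h := fun _ => h) (fun _ => hN)
  obtain ⟨g₁, V₁, a1, a2, a3, a4⟩ := hA W hS hTo hC hc (h := fun _ => h) (fun _ => hN) hg L
  rw [tendsto_zero_iff_norm_tendsto_zero, Metric.tendsto_nhds]
  intro ε hε
  obtain ⟨n, hn⟩ := (a4 (ε / 2) (by positivity)).exists
  have : ∀ᶠ r : ℝ in 𝓝[>] 0, 0 < r ∧ r ≤ g₁ n := by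
    have := Ioo_mem_nhdsGT (a1 n).1
    filter_upwards [this] with r hr
    exact ⟨hr.1, hr.2.le⟩
  filter_upwards [this] with r hr
  have h3 := hn r hr.1 hr.2
  rw [Real.dist_eq, sub_zero, abs_of_nonneg (norm_nonneg _)]
  linarith

end Vale.Agent.P097.A5
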