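import Vale.Agent.P097.H286.T.PtOf
import Vale.Agent.P097.H21.W.Brg
import Vale.Agent.P097.H531.ST.Sel
import Vale.Agent.P097.H146.TdStU

/-!
# P097 : block (T), `A5.PT` is a theorem
-/

set_option linter.all false

namespace Vale.Agent.P097.TC

theorem pt : A5.PT := H286.T.pt_of_st H21.W.brg H531.ST.sel_st H146S.tdst

end Vale.Agent.P097.TC
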