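import Vale.Agent.P097.TC.Top
import Vale.Agent.P097.TC.PT
import Vale.Agent.P097.H21.W.PW

/-!
# P097 : the full answer
-/

set_option linter.all false

namespace Vale.Agent.P097.TC

open Vale.Agent.P097

/-- **the near-boundary Birkhoff conjecture** -/
theorem full :
    (∀ (h : ℝ → ℝ) (η : ℝ), SmoothTable h → 0 < η → (Collar h η ∨ H407.Leaves h η) →
      H407.IsEllipse h) ∧
    (∀ B : H438.Table, B.IntegrableNearBoundary → H438.EllipseDomain B.Ω) :=
  H74.full_of H21.W.pw pt

end Vale.Agent.P097.TC
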