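import Vale.Agent.P097.H6.Main
import Vale.Agent.P097.H275.G.Gro
import Vale.Agent.P097.H83.AI.Pai
import Vale.Agent.P097.H308.HIae
import Vale.Agent.P097.H74.NN

/-!
# P097 : the full answer from the two rows `PW`, `PT`
-/

set_option linter.all false

open Complex Metric Filter Topology Set MeasureTheory
open scoped ComplexConjugate

namespace Vale.Agent.P097.H74

open Vale.Agent.P097 Vale.Agent.P097.TA Vale.Agent.P097.H202 Vale.Agent.P097.SC
open Vale.Agent.P097.H85 Vale.Agent.P097.H929 Vale.Agent.P097.H543 Vale.Agent.P097.H456.C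
open Vale.Agent.P097.H6 Vale.Agent.P097.TC Vale.Agent.P097.A5

/-- **rows W5-INST and TOUCH** at the points of the layer -/
theorem inst : Inst := by
  intro κ Λ b H Φ r e α p J F q Q e₁ c₀ R A P θ he hc hB n ε b₀ m Ψ S Pt c k y₁ y₂ s s' G
  obtain ⟨K, th, T, hth, hK⟩ := H320.W5.w5_of hB G (GR.gro hB.en)
  exact ⟨K, _, _, th, hth, fun {y₀ u₀ σ} h1 h2 =>
    ⟨hK h2.u0 (h1.trans_lt G.ss) h2.regj h2.regk, fun y u hS =>
      H308.tou_lay hB G T (h1.trans_lt G.ss) h2 hS⟩⟩

/-- **row ONE TYPE** from `PW` and `PT` -/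
theorem oneTypeL_of (hW : PW) (hT : PT) : OneTypeL :=
  have h1 : H505.WallsAe := H308.wallsAe_of hW H83.AI.pai GR.gro
  H505.oneTypeL_of h1 (noNestV_of inst h1 hW H83.AI.pai hT)

/-- **the full answer** from `PW` and `PT` -/
theorem full_of (hW : PW) (hT : PT) :
    (∀ (h : ℝ → ℝ) (η : ℝ), SmoothTable h → 0 < η → (Collar h η ∨ H407.Leaves h η) →
      H407.IsEllipse h) ∧
    (∀ B : H438.Table, B.IntegrableNearBoundary → H438.EllipseDomain B.Ω) :=
  both_l (oneTypeL_of hW hT)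

end Vale.Agent.P097.H74
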